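import Vale.Agent.P143.Main

open MeasureTheory Vale.Agent.P143

universe u

theorem Vale.Agent.Results.P143.Factor.result :
    (∀ (Γ : Type u) [Group Γ] (S : Finset Γ), Subgroup.closure (S : Set Γ) = ⊤ →
      ∃ Φ : (Γ → unitInterval) → ((SimpleGraph.mulCayley (S : Set Γ)).edgeSet → Bool),
        Measurable Φ ∧
        (∀ (γ : Γ) (U : Γ → unitInterval) (e e' : (SimpleGraph.mulCayley (S : Set Γ)).edgeSet),
          e'.1 = e.1.map (fun v => γ * v) → Φ (fun v => U (γ⁻¹ * v)) e' = Φ U e) ∧
        IsFUSF (SimpleGraph.mulCayley (S : Set Γ)) ((iidUniform Γ).map Φ)) ∧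
    (∃ Φ : GoodGraph → (ℕ → unitInterval) → Sym2 ℕ → Bool,
      (∀ e : Sym2 ℕ, Measurable (fun p : GoodGraph × (ℕ → unitInterval) => Φ p.1 p.2 e)) ∧
      (∀ (G G' : GoodGraph) (σ : G.1 ≃g G'.1) (U : ℕ → unitInterval) (e : Sym2 ℕ),
        Φ G' (fun v => U (σ.symm v)) (e.map σ) = Φ G U e) ∧
      ∀ G : GoodGraph,
        IsFUSF G.1 ((iidUniform ℕ).map (fun U (e : G.1.edgeSet) => Φ G U e.1))) := by
  constructor
  · intro Γ _ S hS
    have hlf : LF (SimpleGraph.mulCayley (S : Set Γ)) := fun v => by
      refine ((S.finite_toSet.image (fun g => v * g)).union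
        (S.finite_toSet.image (fun g => v * g⁻¹))).subset fun w hw => ?_
      obtain ⟨-, g, hg, h | h⟩ := (SimpleGraph.mulCayley_adj' _ _ _).1 hw
      · exact Or.inl ⟨g, hg, h⟩
      · exact Or.inr ⟨g, hg, by simp [h]⟩
    have hadj : ∀ x, ∀ y ∈ (S : Set Γ),
        (SimpleGraph.mulCayley (S : Set Γ)).Reachable x (x * y) := fun x y hy => by
      by_cases h : x = x * y
      · rw [← h]
      · exact SimpleGraph.Adj.reachable
          ((SimpleGraph.mulCayley_adj' _ _ _).2 ⟨h, y, hy, Or.inl rfl⟩)
    have hc : (SimpleGraph.mulCayley (S : Set Γ)).Connected := by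
      rw [SimpleGraph.connected_iff_exists_forall_reachable]
      refine ⟨1, fun w => ?_⟩
      have hw : w ∈ Subgroup.closure (S : Set Γ) := by rw [hS]; trivial
      induction hw using Subgroup.closure_induction_right with
      | one => rfl
      | mul_right x _ y hy ih => exact ih.trans (hadj x y hy)
      | mul_inv_cancel x _ y hy ih =>
        have := hadj (x * y⁻¹) y hy
        rw [inv_mul_cancel_right] at this
        exact ih.trans this.symm
    have := countable_of_connected hc hlf
    refine ⟨fun U e => Phi _ U e.1, measurable_PhiE _, fun γ U e e' h => ?_, isFUSF_Phi hc hlf⟩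
    let σ : SimpleGraph.mulCayley (S : Set Γ) ≃g SimpleGraph.mulCayley (S : Set Γ) :=
      ⟨Equiv.mulLeft γ, SimpleGraph.mulCayley_adj_mul_iff_right⟩
    have h1 := Phi_map σ (fun v => U (γ⁻¹ * v)) e.1
    have h2 : (fun v => U (γ⁻¹ * v)) ∘ σ = U := by
      ext v
      change (U (γ⁻¹ * (γ * v)) : ℝ) = U v
      rw [inv_mul_cancel_left]
    rw [h2] at h1
    dsimp only
    rw [h]
    exact h1
  · refine ⟨fun G U e => Phi G.1 U e, fun e => ?_, fun G G' σ U e => ?_,
      fun G => isFUSF_Phi G.2.1 G.2.2⟩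
    · refine measurable_Phi (G := fun p : GoodGraph × (ℕ → unitInterval) => p.1.1)
        (fun u v => measurableSet_setOfPred.2 ?_) measurable_snd e
      have : Measurable (fun G : GoodGraph => G.1.Adj) := comap_measurable _
      exact (measurable_pi_apply v).comp ((measurable_pi_apply u).comp (this.comp measurable_fst))
    · have h2 : (fun v => U (σ.symm v)) ∘ σ = U := by
        ext v
        simp
      exact (Phi_map σ _ e).trans (by rw [h2])
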